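import Mathlib

/-!
# A family of `r`-partite `r`-uniform hypergraphs whose matching number is not lowered by
deleting `r - 1` vertices (every `r ≥ 3`)

Parts are indexed by `Fin r`, every part is `Fin (r * (r - 1))`, a vertex is a pair `(i, x)` and an
edge is a function `e : Fin r → Fin (r * (r - 1))` (standing for the vertex set `{(i, e i)}`).

For `a < (r - 1) ^ 2` the class of `a` is the set of vertices `(i, a)` with `InQ r a i`; it has an
odd number of vertices, at most one in each part. An edge is a function meeting every class in an
even number of vertices.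
-/

namespace Vale.Agent.H24.Lov

open Finset

/-- Part `i` carries a vertex of the class `a`: always when `r` is odd, and exactly for
`i ≠ a mod r` when `r` is even. -/
def InQ (r a : ℕ) (i : Fin r) : Prop := Odd r ∨ (i : ℕ) ≠ a % r

instance instDecidablePredInQ (r a : ℕ) : DecidablePred (InQ r a) := fun i => by
  unfold InQ; exact inferInstance

/-- The edge set: every value `a < (r - 1) ^ 2` is taken an even number of times on the parts
carrying the class of `a`. -/
def edges (r : ℕ) : Finset (Fin r → Fin (r * (r - 1))) :=
  univ.filter fun e =>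
    ∀ a < (r - 1) ^ 2, Even (univ.filter fun i : Fin r => InQ r a i ∧ (e i : ℕ) = a).card

/-- Pairwise disjoint edges. -/
def IsMatching {r n : ℕ} (M : Finset (Fin r → Fin n)) : Prop :=
  ∀ e ∈ M, ∀ f ∈ M, e ≠ f → ∀ i, e i ≠ f i

/-- Number of vertices of `S` in part `i`. -/
def partCard {r n : ℕ} (S : Finset (Fin r × Fin n)) (i : Fin r) : ℕ :=
  (S.filter fun v => v.1 = i).card

/-- Number of vertices of `S` in the class of `x`. -/
def classCard {r n : ℕ} (S : Finset (Fin r × Fin n)) (x : Fin n) : ℕ :=
  (univ.filter fun i : Fin r => InQ r x i ∧ (i, x) ∈ S).card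

/-- The classes meeting `S` in an even, positive number of vertices. -/
def ev2 {r : ℕ} (S : Finset (Fin r × Fin (r * (r - 1)))) : Finset (Fin (r * (r - 1))) :=
  univ.filter fun x => (x : ℕ) < (r - 1) ^ 2 ∧ Even (classCard S x) ∧ 0 < classCard S x

/-- The classes not meeting `S`. -/
def ev0 {r : ℕ} (S : Finset (Fin r × Fin (r * (r - 1)))) : Finset (Fin (r * (r - 1))) :=
  univ.filter fun x => (x : ℕ) < (r - 1) ^ 2 ∧ classCard S x = 0

/-- Every class has an odd number of vertices. -/
theorem card_inQ_odd (r a : ℕ) (hr : 1 ≤ r) : Odd (univ.filter fun i : Fin r => InQ r a i).card := by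
  rcases Nat.even_or_odd r with he | ho
  · have hlt : a % r < r := Nat.mod_lt _ (by omega)
    have hfil : (univ.filter fun i : Fin r => InQ r a i) = univ.erase (⟨a % r, hlt⟩ : Fin r) := by
      ext i
      rw [mem_filter, mem_erase]
      simp only [mem_univ, true_and, and_true]
      unfold InQ
      constructor
      · rintro (h | h)
        · exact absurd he (Nat.not_even_iff_odd.mpr h)
        · intro hi; apply h; rw [hi]
      · intro h; right; intro hi; apply h; exact Fin.ext hi
    rw [hfil, card_erase_of_mem (mem_univ _), card_univ, Fintype.card_fin]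
    obtain ⟨m, hm⟩ := he
    exact ⟨m - 1, by omega⟩
  · have hfil : (univ.filter fun i : Fin r => InQ r a i) = univ := by
      ext i
      rw [mem_filter]
      simp only [mem_univ, true_and, iff_true]
      exact Or.inl ho
    rw [hfil, card_univ, Fintype.card_fin]; exact ho

/-- The parts partition `S`. -/
theorem sum_partCard {r n : ℕ} (S : Finset (Fin r × Fin n)) : ∑ i, partCard S i = S.card := by
  unfold partCard
  exact (card_eq_sum_card_fiberwise (f := fun v : Fin r × Fin n => v.1) (t := univ)
    (fun v _ => mem_univ _)).symm

end Vale.Agent.H24.Lov
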