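import Vale.Agent.H24.Lov.Defs

/-!
Zero filling: a vertex set with at most `r - 1` vertices in every part is completed, by vertices
`(i, x)` with `x ≥ (r - 1) ^ 2`, to a set with exactly `r - 1` vertices in every part.

Sketch. Part `i` has exactly `r * (r - 1) - (r - 1) ^ 2 = r - 1` vertices `(i, x)` with
`(r - 1) ^ 2 ≤ x`; at most `partCard T i` of them lie in `T`, so at least
`r - 1 - partCard T i` are outside `T`; choose exactly that many (`Finset.exists_subset_card_eq`)
for every part and let `Z` be the union.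
-/

namespace Vale.Agent.H24.Lov

open Finset

theorem fill (r : ℕ) (hr : 3 ≤ r) (T : Finset (Fin r × Fin (r * (r - 1))))
    (hT : ∀ i, partCard T i ≤ r - 1) :
    ∃ Z : Finset (Fin r × Fin (r * (r - 1))), Disjoint Z T ∧
      (∀ v ∈ Z, (r - 1) ^ 2 ≤ (v.2 : ℕ)) ∧ ∀ i, partCard (T ∪ Z) i = r - 1 := by
  classical
  have hNm : r * (r - 1) = (r - 1) ^ 2 + (r - 1) := by
    obtain ⟨k, rfl⟩ : ∃ k, r = k + 1 := ⟨r - 1, by omega⟩
    simp only [Nat.add_sub_cancel]
    ring
  have hAcard : (univ.filter (fun x : Fin (r * (r - 1)) => (r - 1) ^ 2 ≤ (x : ℕ))).card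
      = r - 1 := by
    have h1 := card_filter_add_card_filter_not (s := (univ : Finset (Fin (r * (r - 1)))))
      (fun x : Fin (r * (r - 1)) => (x : ℕ) < (r - 1) ^ 2)
    have h2 : (univ.filter (fun x : Fin (r * (r - 1)) => (x : ℕ) < (r - 1) ^ 2)).card
        = min (r * (r - 1)) ((r - 1) ^ 2) := Fin.card_filter_val_lt
    have h3 : (univ.filter (fun x : Fin (r * (r - 1)) => ¬ (x : ℕ) < (r - 1) ^ 2))
        = univ.filter (fun x : Fin (r * (r - 1)) => (r - 1) ^ 2 ≤ (x : ℕ)) := by
      ext x
      simp only [mem_filter, mem_univ, true_and, not_lt]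
    rw [h3, h2, card_univ, Fintype.card_fin] at h1
    have h4 : min (r * (r - 1)) ((r - 1) ^ 2) = (r - 1) ^ 2 := by
      apply min_eq_right
      omega
    rw [h4] at h1
    omega
  have hB : ∀ i : Fin r, r - 1 - partCard T i ≤
      ((univ.filter (fun x : Fin (r * (r - 1)) => (r - 1) ^ 2 ≤ (x : ℕ))).filter
        (fun x => (i, x) ∉ T)).card := by
    intro i
    have h1 := card_filter_add_card_filter_not
      (s := univ.filter (fun x : Fin (r * (r - 1)) => (r - 1) ^ 2 ≤ (x : ℕ)))
      (fun x : Fin (r * (r - 1)) => (i, x) ∈ T)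
    have h2 : ((univ.filter (fun x : Fin (r * (r - 1)) => (r - 1) ^ 2 ≤ (x : ℕ))).filter
        (fun x => (i, x) ∈ T)).card ≤ partCard T i := by
      unfold partCard
      apply Finset.card_le_card_of_injOn (fun x => (i, x))
      · intro x hx
        have hx' := (mem_filter.mp (mem_coe.mp hx)).2
        exact mem_coe.mpr (mem_filter.mpr ⟨hx', rfl⟩)
      · intro x _ y _ h
        exact (Prod.mk.inj h).2
    rw [hAcard] at h1
    omega
  choose C hCsub hCcard using fun i => Finset.exists_subset_card_eq (hB i)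
  have hCmem : ∀ i x, x ∈ C i → (r - 1) ^ 2 ≤ (x : ℕ) ∧ (i, x) ∉ T := by
    intro i x hx
    have h1 := mem_filter.mp (hCsub i hx)
    exact ⟨(mem_filter.mp h1.1).2, h1.2⟩
  have hZmem : ∀ v : Fin r × Fin (r * (r - 1)),
      v ∈ univ.biUnion (fun i => (C i).image (fun x => (i, x))) ↔ v.2 ∈ C v.1 := by
    intro v
    simp only [mem_biUnion, mem_univ, true_and, mem_image]
    constructor
    · rintro ⟨i, x, hx, rfl⟩
      exact hx
    · intro h
      exact ⟨v.1, v.2, h, rfl⟩
  refine ⟨univ.biUnion (fun i => (C i).image (fun x => (i, x))), ?_, ?_, ?_⟩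
  · rw [Finset.disjoint_left]
    intro v hv hvT
    exact (hCmem v.1 v.2 ((hZmem v).mp hv)).2 hvT
  · intro v hv
    exact (hCmem v.1 v.2 ((hZmem v).mp hv)).1
  · intro i
    have hdisj : Disjoint T (univ.biUnion (fun i => (C i).image (fun x => (i, x)))) := by
      rw [Finset.disjoint_left]
      intro v hvT hv
      exact (hCmem v.1 v.2 ((hZmem v).mp hv)).2 hvT
    have hZi : (univ.biUnion (fun i => (C i).image (fun x => (i, x)))).filter
        (fun v => v.1 = i) = (C i).image (fun x => (i, x)) := by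
      ext v
      rw [mem_filter, hZmem, mem_image]
      constructor
      · rintro ⟨h, hvi⟩
        subst hvi
        exact ⟨v.2, h, rfl⟩
      · rintro ⟨x, hx, rfl⟩
        exact ⟨hx, rfl⟩
    have hTi := hT i
    unfold partCard at hTi ⊢
    rw [Finset.filter_union, Finset.card_union_of_disjoint (disjoint_filter_filter hdisj), hZi,
      Finset.card_image_of_injective _ (fun x y h => (Prod.mk.inj h).2), hCcard]
    unfold partCard
    omega

end Vale.Agent.H24.Lov
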