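import Vale.Agent.H24.Lov.Defs

/-!
Placement A: every class meeting `S` in an even positive number of vertices gets one more vertex.

Sketch. For `x ∈ ev2 S` the set `{i | InQ r x i ∧ (i, x) ∈ S}` has even size and
`{i | InQ r x i}` has odd size (`card_inQ_odd`), so there is `i` with `InQ r x i` and
`(i, x) ∉ S`; let `p x` be such an `i` (and anything for `x ∉ ev2 S`). Capacity: fix a part `i` and
let `G = {x ∈ ev2 S | p x = i}`. The vertices of `S` in part `i` and the vertices `(j, x) ∈ S` with
`x ∈ G`, `InQ r x j` are different vertices of `S` (the latter have `j ≠ i` because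
`(i, x) = (p x, x) ∉ S`), and every `x ∈ G` contributes `classCard S x ≥ 2` of the latter. Hence
`partCard S i + 2 * G.card ≤ S.card ≤ r - 1`.
-/

namespace Vale.Agent.H24.Lov

open Finset

theorem placeA (r : ℕ) (hr : 3 ≤ r) (S : Finset (Fin r × Fin (r * (r - 1))))
    (hS : S.card ≤ r - 1) :
    ∃ p : Fin (r * (r - 1)) → Fin r,
      (∀ x ∈ ev2 S, InQ r x (p x) ∧ (p x, x) ∉ S) ∧
      ∀ i, partCard S i + ((ev2 S).filter fun x => p x = i).card ≤ r - 1 := by
  have placeA_ex : ∀ x ∈ ev2 S, ∃ i : Fin r, InQ r x i ∧ (i, x) ∉ S := by
    intro x hx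
    by_contra hcon0
    have hcon : ∀ i : Fin r, InQ r x i → (i, x) ∈ S := fun i hi => by
      by_contra hnot
      exact hcon0 ⟨i, hi, hnot⟩
    have hx' := (mem_filter.1 hx).2
    have heq : (univ.filter fun i : Fin r => InQ r x i ∧ (i, x) ∈ S)
        = univ.filter fun i : Fin r => InQ r x i := by
      apply filter_congr
      intro i _
      exact ⟨fun h => h.1, fun h => ⟨h, hcon i h⟩⟩
    have hodd := card_inQ_odd r x (by omega)
    have heven : Even (classCard S x) := hx'.2.1
    unfold classCard at heven
    rw [heq] at heven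
    exact (Nat.not_even_iff_odd.2 hodd) heven
  have placeA_ne : NeZero r := ⟨by omega⟩
  choose! p hp using placeA_ex
  refine ⟨p, hp, fun i => ?_⟩
  have hG : ((ev2 S).filter fun x => p x = i).card ≤ (S.filter fun v => ¬ v.1 = i).card := by
    calc ((ev2 S).filter fun x => p x = i).card
        ≤ ((S.filter fun v => ¬ v.1 = i).image Prod.snd).card := by
          apply card_le_card
          intro x hx
          rw [mem_filter] at hx
          obtain ⟨hxe, hpx⟩ := hx
          have hpos : 0 < classCard S x := (mem_filter.1 hxe).2.2.2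
          unfold classCard at hpos
          obtain ⟨j, hj⟩ := card_pos.1 hpos
          rw [mem_filter] at hj
          have hne : ¬ j = i := by
            intro hji
            have hnot := (hp x hxe).2
            rw [hpx, ← hji] at hnot
            exact hnot hj.2.2
          exact mem_image.2 ⟨(j, x), mem_filter.2 ⟨hj.2.2, hne⟩, rfl⟩
      _ ≤ (S.filter fun v => ¬ v.1 = i).card := card_image_le
  have hsplit : (S.filter fun v => v.1 = i).card + (S.filter fun v => ¬ v.1 = i).card
      = S.card := by
    exact card_filter_add_card_filter_not fun v : Fin r × Fin (r * (r - 1)) => v.1 = i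
  unfold partCard
  omega

end Vale.Agent.H24.Lov
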