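import Vale.Agent.H24.Lov.Defs

/-!
Placement B: distribute the classes of `V` over the parts, class `x` into a part carrying it,
at most `c i` classes into part `i`.

Sketch. Slots: pairs `(i, t)` with `t < c i` (for instance the finset
`univ.sigma fun i => range (c i)`, of size `∑ i, c i`). Class `x` may use the slots of the parts
`i` with `InQ r x i`. It is enough to find an injective choice of allowed slots (then `f x` is the
part of the slot of `x`, and the classes sent to part `i` inject into the `c i` slots of part `i`).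
* `r` odd: `InQ r x i` always holds; inject `V` into the slots (`V.card ≤ ∑ i, c i`).
* `r` even: Hall's theorem (`Finset.all_card_le_biUnion_card_iff_exists_injective`). Let `A ⊆ V`
  be nonempty. If two elements of `A` have different residues mod `r`, the union of their allowed
  slots is the set of all slots and `A.card ≤ V.card ≤ ∑ i, c i`. If all have the same residue
  `j`, then `A.card ≤ r - 1` (the numbers `< (r - 1) ^ 2 = r * (r - 2) + 1` with residue `j` are
  at most `r - 1`) and the allowed slots are those of the parts `i ≠ j`, in number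
  `∑ i, c i - c j ≥ 2 * (r - 1) - (r - 1)`.
-/

namespace Vale.Agent.H24.Lov

open Finset

theorem placeB (r : ℕ) (hr : 3 ≤ r) (c : Fin r → ℕ) (hc : ∀ i, c i ≤ r - 1)
    (V : Finset (Fin (r * (r - 1)))) (hV : ∀ x ∈ V, (x : ℕ) < (r - 1) ^ 2)
    (hsum : V.card ≤ ∑ i, c i) (hlarge : Even r → 2 * (r - 1) ≤ ∑ i, c i) :
    ∃ f : Fin (r * (r - 1)) → Fin r,
      (∀ x ∈ V, InQ r x (f x)) ∧ ∀ i, (V.filter fun x => f x = i).card ≤ c i := by
  classical
  have hr0 : 0 < r := by omega
  -- the slots allowed for the class `x`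
  let t : ↥V → Finset (Σ _ : Fin r, ℕ) := fun x =>
    (univ.filter (fun i : Fin r => InQ r (x.1).val i)).sigma (fun i => range (c i))
  have hmem_t : ∀ (x : ↥V) (s : Σ _ : Fin r, ℕ), s ∈ t x ↔ InQ r (x.1).val s.1 ∧ s.2 < c s.1 := by
    intro x s
    simp only [t, Finset.mem_sigma, Finset.mem_filter, Finset.mem_univ, true_and,
      Finset.mem_range]
  have hcard_t : ∀ x : ↥V,
      (t x).card = ∑ i ∈ univ.filter (fun i : Fin r => InQ r (x.1).val i), c i := by
    intro x
    simp only [t, Finset.card_sigma, Finset.card_range]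
  -- the marriage condition
  have hall : ∀ A : Finset ↥V, A.card ≤ (A.biUnion t).card := by
    intro A
    rcases A.eq_empty_or_nonempty with hA | ⟨x0, hx0⟩
    · simp [hA]
    have hAV : A.card ≤ V.card := by
      have h1 := Finset.card_le_univ A
      rwa [Fintype.card_coe] at h1
    by_cases hcase : Odd r ∨ ∃ y ∈ A, (y.1).val % r ≠ (x0.1).val % r
    · have hsub : (univ : Finset (Fin r)).sigma (fun i => range (c i)) ⊆ A.biUnion t := by
        intro s hs
        rw [Finset.mem_sigma, Finset.mem_range] at hs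
        rw [Finset.mem_biUnion]
        rcases hcase with ho | ⟨y, hy, hne⟩
        · exact ⟨x0, hx0, (hmem_t x0 s).mpr ⟨Or.inl ho, hs.2⟩⟩
        · by_cases hs1 : (s.1 : ℕ) = (x0.1).val % r
          · refine ⟨y, hy, (hmem_t y s).mpr ⟨Or.inr ?_, hs.2⟩⟩
            rw [hs1]
            exact fun h => hne h.symm
          · exact ⟨x0, hx0, (hmem_t x0 s).mpr ⟨Or.inr hs1, hs.2⟩⟩
      have h1 := Finset.card_le_card hsub
      rw [Finset.card_sigma] at h1
      simp only [Finset.card_range] at h1
      omega
    · have hodd : ¬ Odd r := fun h => hcase (Or.inl h)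
      have hres : ∀ y ∈ A, (y.1).val % r = (x0.1).val % r := by
        intro y hy
        by_contra hne
        exact hcase (Or.inr ⟨y, hy, hne⟩)
      have heven : Even r := Nat.not_odd_iff_even.mp hodd
      have hL := hlarge heven
      have hA1 : A.card ≤ r - 1 := by
        have hinj : Set.InjOn (fun y : ↥V => (y.1).val / r) (A : Set ↥V) := by
          intro y hy z hz hyz
          have h1 := hres y hy
          have h2 := hres z hz
          have h3 := Nat.div_add_mod (y.1).val r
          have h4 := Nat.div_add_mod (z.1).val r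
          have hyz' : (y.1).val / r = (z.1).val / r := hyz
          apply Subtype.ext
          apply Fin.ext
          rw [← h3, ← h4, hyz', h1, h2]
        have hmaps : ∀ y ∈ A, (fun y : ↥V => (y.1).val / r) y ∈ range (r - 1) := by
          intro y _
          rw [Finset.mem_range]
          have h1 := hV y.1 y.2
          show (y.1).val / r < r - 1
          rw [Nat.div_lt_iff_lt_mul hr0]
          calc (y.1).val < (r - 1) ^ 2 := h1
            _ ≤ (r - 1) * r := by
                rw [sq]
                exact Nat.mul_le_mul_left _ (Nat.sub_le r 1)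
        have h5 := Finset.card_le_card_of_injOn _ hmaps hinj
        rwa [Finset.card_range] at h5
      obtain ⟨j, hj⟩ : ∃ j : Fin r, (j : ℕ) = (x0.1).val % r :=
        ⟨⟨(x0.1).val % r, Nat.mod_lt _ hr0⟩, rfl⟩
      have hsubj : univ.erase j ⊆ univ.filter (fun i : Fin r => InQ r (x0.1).val i) := by
        intro i hi
        rw [Finset.mem_erase] at hi
        rw [Finset.mem_filter]
        refine ⟨Finset.mem_univ _, Or.inr ?_⟩
        intro h
        exact hi.1 (Fin.ext (h.trans hj.symm))
      have h2 : ∑ i ∈ univ.erase j, c i ≤ (t x0).card := by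
        rw [hcard_t]
        exact Finset.sum_le_sum_of_subset hsubj
      have h3 : c j + ∑ i ∈ univ.erase j, c i = ∑ i, c i :=
        Finset.add_sum_erase _ _ (Finset.mem_univ j)
      have h4 : (t x0).card ≤ (A.biUnion t).card :=
        Finset.card_le_card (Finset.subset_biUnion_of_mem t hx0)
      have h5 := hc j
      omega
  obtain ⟨g, hginj, hgmem⟩ :=
    (Finset.all_card_le_biUnion_card_iff_exists_injective t).mp hall
  obtain ⟨f, hf⟩ : ∃ f : Fin (r * (r - 1)) → Fin r, ∀ x (hx : x ∈ V), f x = (g ⟨x, hx⟩).1 :=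
    ⟨fun x => if hx : x ∈ V then (g ⟨x, hx⟩).1 else ⟨0, hr0⟩, fun x hx => dif_pos hx⟩
  obtain ⟨k, hk⟩ : ∃ k : Fin (r * (r - 1)) → ℕ, ∀ x (hx : x ∈ V), k x = (g ⟨x, hx⟩).2 :=
    ⟨fun x => if hx : x ∈ V then (g ⟨x, hx⟩).2 else 0, fun x hx => dif_pos hx⟩
  refine ⟨f, ?_, ?_⟩
  · intro x hx
    rw [hf x hx]
    exact ((hmem_t ⟨x, hx⟩ _).mp (hgmem ⟨x, hx⟩)).1
  · intro i
    have hmaps : ∀ x ∈ V.filter (fun x => f x = i), k x ∈ range (c i) := by
      intro x hx
      rw [Finset.mem_filter] at hx
      obtain ⟨hxV, hxi⟩ := hx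
      rw [Finset.mem_range, hk x hxV, ← hxi, hf x hxV]
      exact ((hmem_t ⟨x, hxV⟩ _).mp (hgmem ⟨x, hxV⟩)).2
    have hinj : Set.InjOn k (V.filter (fun x => f x = i) : Set (Fin (r * (r - 1)))) := by
      intro x hx y hy hxy
      rw [Finset.mem_coe, Finset.mem_filter] at hx hy
      obtain ⟨hxV, hxi⟩ := hx
      obtain ⟨hyV, hyi⟩ := hy
      rw [hf x hxV] at hxi
      rw [hf y hyV] at hyi
      rw [hk x hxV, hk y hyV] at hxy
      have h1 : g ⟨x, hxV⟩ = g ⟨y, hyV⟩ := Sigma.ext (hxi.trans hyi.symm) (heq_of_eq hxy)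
      exact congrArg Subtype.val (hginj h1)
    have h5 := Finset.card_le_card_of_injOn k hmaps hinj
    rwa [Finset.card_range] at h5

end Vale.Agent.H24.Lov
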