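import Vale.Agent.H24.Lov.Defs

/-!
From a leftover set to a matching.

Sketch. Put `k = (r - 1) ^ 2`, `n = r * (r - 1) = k + (r - 1)`. For a part `i` let
`A i = {x | (i, x) ∉ L}` (size `n - (r - 1) = k` by `h1`) and
`F i = {a : Fin k | InQ r a i ∧ (i, a) ∉ L}`. By `Finset.exists_equiv_extend_of_card_eq` there is a
bijection `phi i : Fin k ≃ A i` which is the inclusion on `F i`. The rows
`e j = fun i => phi i j` (`j : Fin k`) are pairwise different in every coordinate and avoid `L`.
Row `j` lies in `edges r`: if `InQ r a i` and `phi i j = a` then `(i, a) ∉ L`, so `a ∈ F i`, so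
`phi i a = a = phi i j` and `j = a`. Hence for `j ≠ a` the count is `0`, and for `j = a` the counted
parts are exactly the `i` with `InQ r a i` and `(i, a) ∉ L`, whose number is
(odd, `card_inQ_odd`) - (odd, `h2`) = even.
-/

namespace Vale.Agent.H24.Lov

open Finset

/-- The vertices of `L` in part `i`, counted through their second coordinate. -/
theorem rows_card_fiber {r n : ℕ} (L : Finset (Fin r × Fin n)) (i : Fin r) :
    (univ.filter fun x : Fin n => (i, x) ∈ L).card = partCard L i := by
  unfold partCard
  apply Finset.card_bij (fun x _ => (i, x))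
  · intro x hx
    rw [mem_filter] at hx ⊢
    exact ⟨hx.2, rfl⟩
  · intro x _ y _ h
    exact (Prod.mk.inj h).2
  · rintro ⟨a, b⟩ hv
    rw [mem_filter] at hv
    obtain ⟨hv1, hv2⟩ := hv
    simp only at hv2
    subst hv2
    exact ⟨b, by rw [mem_filter]; exact ⟨mem_univ _, hv1⟩, rfl⟩

/-- The values of part `i` that avoid `L`. -/
theorem rows_card_avoid {r n : ℕ} (L : Finset (Fin r × Fin n)) (i : Fin r) :
    (univ.filter fun x : Fin n => (i, x) ∉ L).card = n - partCard L i := by
  have h := Finset.card_filter_add_card_filter_not (s := (univ : Finset (Fin n)))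
    (fun x : Fin n => (i, x) ∈ L)
  rw [rows_card_fiber, card_univ, Fintype.card_fin] at h
  omega

theorem rows (r : ℕ) (hr : 3 ≤ r) (L : Finset (Fin r × Fin (r * (r - 1))))
    (h1 : ∀ i, partCard L i = r - 1)
    (h2 : ∀ x : Fin (r * (r - 1)), (x : ℕ) < (r - 1) ^ 2 → Odd (classCard L x)) :
    ∃ M : Finset (Fin r → Fin (r * (r - 1))), M ⊆ edges r ∧ IsMatching M ∧
      (∀ e ∈ M, ∀ i, (i, e i) ∉ L) ∧ M.card = (r - 1) ^ 2 := by
  classical
  have hkn : (r - 1) ^ 2 ≤ r * (r - 1) := by
    obtain ⟨m, rfl⟩ : ∃ m, r = m + 1 := ⟨r - 1, by omega⟩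
    simp only [Nat.add_sub_cancel]
    nlinarith
  have hnk : r * (r - 1) - (r - 1) = (r - 1) ^ 2 := by
    obtain ⟨m, rfl⟩ : ∃ m, r = m + 1 := ⟨r - 1, by omega⟩
    simp only [Nat.add_sub_cancel]
    have : (m + 1) * m = m ^ 2 + m := by ring
    omega
  have hphi : ∀ i : Fin r, ∃ g : Fin ((r - 1) ^ 2) ≃
      (univ.filter fun x : Fin (r * (r - 1)) => (i, x) ∉ L),
      ∀ j ∈ (univ.filter fun j : Fin ((r - 1) ^ 2) =>
          InQ r (j : ℕ) i ∧ (i, Fin.castLE hkn j) ∉ L),
        ((g j : Fin (r * (r - 1)))) = Fin.castLE hkn j := by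
    intro i
    apply Finset.exists_equiv_extend_of_card_eq
    · rw [Fintype.card_fin, rows_card_avoid, h1, hnk]
    · intro x hx
      rw [mem_image] at hx
      obtain ⟨j, hj, rfl⟩ := hx
      rw [mem_filter] at hj ⊢
      exact ⟨mem_univ _, hj.2.2⟩
    · intro a _ b _ h
      exact Fin.castLE_injective hkn h
  choose g hg using hphi
  have hgL : ∀ i j, (i, ((g i j : _) : Fin (r * (r - 1)))) ∉ L := by
    intro i j
    have := (g i j).2
    rw [mem_filter] at this
    exact this.2
  have hginj : ∀ i j j', ((g i j : _) : Fin (r * (r - 1))) = (g i j' : _) → j = j' := by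
    intro i j j' h
    exact (g i).injective (Subtype.ext h)
  have hrow_inj : Function.Injective
      (fun j : Fin ((r - 1) ^ 2) => fun i => ((g i j : _) : Fin (r * (r - 1)))) := by
    intro j j' h
    have h0 := congrFun h (⟨0, by omega⟩ : Fin r)
    exact hginj _ j j' h0
  refine ⟨univ.image (fun j : Fin ((r - 1) ^ 2) => fun i => ((g i j : _) : Fin (r * (r - 1)))),
    ?_, ?_, ?_, ?_⟩
  · intro e he
    rw [mem_image] at he
    obtain ⟨j, -, rfl⟩ := he
    unfold edges
    rw [mem_filter]
    refine ⟨mem_univ _, ?_⟩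
    intro a ha
    by_cases hja : (j : ℕ) = a
    · -- the counted parts are the parts of the class of `a` off `L`
      have hx : ((Fin.castLE hkn j : Fin (r * (r - 1))) : ℕ) = a := by
        rw [Fin.val_castLE]; exact hja
      have hset : (univ.filter fun i : Fin r =>
            InQ r a i ∧ (((g i j : _) : Fin (r * (r - 1))) : ℕ) = a) =
          (univ.filter fun i : Fin r => InQ r a i).filter
            (fun i => ¬ ((i, Fin.castLE hkn j) ∈ L)) := by
        ext i
        simp only [mem_filter, mem_univ, true_and]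
        constructor
        · rintro ⟨hq, hv⟩
          refine ⟨hq, ?_⟩
          have : ((g i j : _) : Fin (r * (r - 1))) = Fin.castLE hkn j := by
            apply Fin.ext; rw [hv, hx]
          rw [← this]
          exact hgL i j
        · rintro ⟨hq, hv⟩
          refine ⟨hq, ?_⟩
          have hmem : j ∈ (univ.filter fun j : Fin ((r - 1) ^ 2) =>
              InQ r (j : ℕ) i ∧ (i, Fin.castLE hkn j) ∉ L) := by
            rw [mem_filter]
            exact ⟨mem_univ _, by rw [hja]; exact hq, hv⟩
          rw [hg i j hmem, hx]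
      have hsplit := Finset.card_filter_add_card_filter_not
        (s := (univ.filter fun i : Fin r => InQ r a i))
        (fun i => (i, Fin.castLE hkn j) ∈ L)
      have hcls : ((univ.filter fun i : Fin r => InQ r a i).filter
          (fun i => (i, Fin.castLE hkn j) ∈ L)).card = classCard L (Fin.castLE hkn j) := by
        unfold classCard
        rw [Finset.filter_filter, hx]
      have hodd1 := card_inQ_odd r a (by omega)
      have hodd2 := h2 (Fin.castLE hkn j) (by rw [hx]; exact ha)
      rw [hset]
      rw [hcls] at hsplit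
      rw [Nat.odd_iff] at hodd1 hodd2
      rw [Nat.even_iff]
      omega
    · have hset : (univ.filter fun i : Fin r =>
            InQ r a i ∧ (((g i j : _) : Fin (r * (r - 1))) : ℕ) = a) = ∅ := by
        rw [Finset.filter_eq_empty_iff]
        rintro i - ⟨hq, hv⟩
        apply hja
        have hmem : (⟨a, ha⟩ : Fin ((r - 1) ^ 2)) ∈ (univ.filter fun j : Fin ((r - 1) ^ 2) =>
            InQ r (j : ℕ) i ∧ (i, Fin.castLE hkn j) ∉ L) := by
          rw [mem_filter]
          refine ⟨mem_univ _, hq, ?_⟩
          have : Fin.castLE hkn (⟨a, ha⟩ : Fin ((r - 1) ^ 2)) = (g i j : _) := by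
            apply Fin.ext; rw [hv]; rfl
          rw [this]
          exact hgL i j
        have h3 := hg i _ hmem
        have h4 : ((g i (⟨a, ha⟩ : Fin ((r - 1) ^ 2)) : _) : Fin (r * (r - 1))) = (g i j : _) := by
          rw [h3]; apply Fin.ext; rw [hv]; rfl
        have := hginj i _ _ h4
        rw [← this]
      rw [hset]
      simp
  · intro e he f hf hef i
    rw [mem_image] at he hf
    obtain ⟨j, -, rfl⟩ := he
    obtain ⟨j', -, rfl⟩ := hf
    intro h
    apply hef
    have := hginj i j j' h
    rw [this]
  · intro e he i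
    rw [mem_image] at he
    obtain ⟨j, -, rfl⟩ := he
    exact hgL i j
  · rw [Finset.card_image_of_injective _ hrow_inj, card_univ, Fintype.card_fin]

end Vale.Agent.H24.Lov
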