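import Vale.Agent.H24.Lov.Upper
import Vale.Agent.H24.Lov.Rows
import Vale.Agent.H24.Lov.PlaceA
import Vale.Agent.H24.Lov.PlaceB
import Vale.Agent.H24.Lov.Fill

/-!
Assembly: for every `r ≥ 3` the hypergraph `edges r` has matching number `(r - 1) ^ 2`, and the
matching number is not lowered by deleting any `r - 1` vertices.
-/

namespace Vale.Agent.H24.Lov

open Finset

theorem card_ev2_le {r : ℕ} (S : Finset (Fin r × Fin (r * (r - 1)))) :
    (ev2 S).card ≤ S.card := by
  have hsub : ev2 S ⊆ S.image Prod.snd := by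
    intro x hx
    unfold ev2 at hx
    rw [mem_filter] at hx
    have hpos := hx.2.2.2
    unfold classCard at hpos
    obtain ⟨i, hi⟩ := card_pos.mp hpos
    rw [mem_filter] at hi
    exact mem_image.mpr ⟨(i, x), hi.2.2, rfl⟩
  exact (card_le_card hsub).trans card_image_le

theorem card_ev0_add_ev2 {r : ℕ} (S : Finset (Fin r × Fin (r * (r - 1)))) :
    (ev0 S).card + (ev2 S).card ≤ (r - 1) ^ 2 := by
  have hdisj : Disjoint (ev0 S) (ev2 S) := by
    rw [disjoint_left]
    intro x h0 h2
    unfold ev0 at h0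
    unfold ev2 at h2
    rw [mem_filter] at h0 h2
    have := h2.2.2.2
    omega
  rw [← card_union_of_disjoint hdisj]
  have hinj : Set.InjOn (fun x : Fin (r * (r - 1)) => (x : ℕ)) (ev0 S ∪ ev2 S : Finset _) := by
    intro x _ y _ hxy
    exact Fin.ext hxy
  have hmaps : ∀ x ∈ ev0 S ∪ ev2 S, (fun x : Fin (r * (r - 1)) => (x : ℕ)) x ∈ range ((r - 1) ^ 2) := by
    intro x hx
    rw [mem_range]
    rcases mem_union.mp hx with h | h
    · unfold ev0 at h; rw [mem_filter] at h; exact h.2.1
    · unfold ev2 at h; rw [mem_filter] at h; exact h.2.1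
  have := card_le_card_of_injOn _ hmaps hinj
  rwa [card_range] at this

/-- Step 1: every set of at most `r - 1` vertices extends to a set with exactly `r - 1` vertices in
every part which meets every class in an odd number of vertices. -/
theorem leftover (r : ℕ) (hr : 3 ≤ r) (S : Finset (Fin r × Fin (r * (r - 1))))
    (hS : S.card ≤ r - 1) :
    ∃ L : Finset (Fin r × Fin (r * (r - 1))), S ⊆ L ∧ (∀ i, partCard L i = r - 1) ∧
      ∀ x : Fin (r * (r - 1)), (x : ℕ) < (r - 1) ^ 2 → Odd (classCard L x) := by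
  obtain ⟨p, hp1, hp2⟩ := placeA r hr S hS
  obtain ⟨q, hq⟩ : ∃ q : Fin r → ℕ, ∀ i, q i = ((ev2 S).filter fun x => p x = i).card :=
    ⟨_, fun _ => rfl⟩
  obtain ⟨c, hcdef⟩ : ∃ c : Fin r → ℕ, ∀ i, c i = r - 1 - partCard S i - q i := ⟨_, fun _ => rfl⟩
  have hcap : ∀ i, partCard S i + q i + c i = r - 1 := by
    intro i
    have h := hp2 i
    rw [← hq i] at h
    rw [hcdef i]
    omega
  have hsumq : ∑ i, q i = (ev2 S).card := by
    have h := card_eq_sum_card_fiberwise (f := p) (s := ev2 S) (t := univ) (fun _ _ => mem_univ _)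
    rw [h]
    exact Finset.sum_congr rfl (fun i _ => hq i)
  have hsumc : S.card + (ev2 S).card + ∑ i, c i = r * (r - 1) := by
    have h : ∑ i, (partCard S i + q i + c i) = ∑ _i : Fin r, (r - 1) :=
      Finset.sum_congr rfl (fun i _ => hcap i)
    rw [Finset.sum_add_distrib, Finset.sum_add_distrib, sum_partCard, hsumq] at h
    rw [h]
    simp
  have hk : r * (r - 1) = (r - 1) ^ 2 + (r - 1) := by
    obtain ⟨s, rfl⟩ : ∃ s, r = s + 1 := ⟨r - 1, by omega⟩
    simp only [Nat.add_sub_cancel]
    ring
  have h02 := card_ev0_add_ev2 S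
  have h2S := card_ev2_le S
  have hsum : (ev0 S).card ≤ ∑ i, c i := by
    obtain ⟨N, hN⟩ : ∃ N : ℕ, N = r * (r - 1) := ⟨_, rfl⟩
    obtain ⟨K, hK⟩ : ∃ K : ℕ, K = (r - 1) ^ 2 := ⟨_, rfl⟩
    have e1 : S.card + (ev2 S).card + ∑ i, c i = N := hsumc.trans hN.symm
    have e2 : N = K + (r - 1) := by rw [hN, hK]; exact hk
    have e3 : (ev0 S).card + (ev2 S).card ≤ K := by rw [hK]; exact h02
    omega
  have hlarge : Even r → 2 * (r - 1) ≤ ∑ i, c i := by
    intro he
    have h4 : 4 ≤ r := by
      obtain ⟨m, hm⟩ := he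
      omega
    have h5 : 4 * (r - 1) ≤ r * (r - 1) := Nat.mul_le_mul_right _ h4
    obtain ⟨N, hN⟩ : ∃ N : ℕ, N = r * (r - 1) := ⟨_, rfl⟩
    have e1 : S.card + (ev2 S).card + ∑ i, c i = N := hsumc.trans hN.symm
    have e2 : 4 * (r - 1) ≤ N := by rw [hN]; exact h5
    omega
  have hc : ∀ i, c i ≤ r - 1 := by
    intro i
    have := hcap i
    omega
  have hV : ∀ x ∈ ev0 S, (x : ℕ) < (r - 1) ^ 2 := by
    intro x hx
    unfold ev0 at hx
    rw [mem_filter] at hx
    exact hx.2.1
  obtain ⟨f, hf1, hf2⟩ := placeB r hr c hc (ev0 S) hV hsum hlarge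
  -- the added class vertices
  obtain ⟨P, hP⟩ : ∃ P : Finset (Fin r × Fin (r * (r - 1))),
      P = (ev2 S).image (fun x => (p x, x)) ∪ (ev0 S).image (fun x => (f x, x)) := ⟨_, rfl⟩
  have hPmem : ∀ v : Fin r × Fin (r * (r - 1)),
      v ∈ P ↔ (v.2 ∈ ev2 S ∧ p v.2 = v.1) ∨ (v.2 ∈ ev0 S ∧ f v.2 = v.1) := by
    intro v
    rw [hP, mem_union, mem_image, mem_image]
    constructor
    · rintro (⟨x, hx, rfl⟩ | ⟨x, hx, rfl⟩)
      · exact Or.inl ⟨hx, rfl⟩
      · exact Or.inr ⟨hx, rfl⟩
    · rintro (⟨hx, h⟩ | ⟨hx, h⟩)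
      · exact Or.inl ⟨v.2, hx, by rw [h]⟩
      · exact Or.inr ⟨v.2, hx, by rw [h]⟩
  have hT : ∀ i, partCard (S ∪ P) i ≤ r - 1 := by
    intro i
    have hsub : (S ∪ P).filter (fun v => v.1 = i) ⊆
        S.filter (fun v => v.1 = i) ∪
          (((ev2 S).filter fun x => p x = i).image (fun x => (p x, x)) ∪
            ((ev0 S).filter fun x => f x = i).image (fun x => (f x, x))) := by
      intro v hv
      rw [mem_filter, mem_union] at hv
      obtain ⟨hv1, hv2⟩ := hv
      rw [mem_union]
      rcases hv1 with hS' | hP'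
      · exact Or.inl (mem_filter.mpr ⟨hS', hv2⟩)
      · right
        rw [mem_union]
        rcases (hPmem v).mp hP' with ⟨hx, h⟩ | ⟨hx, h⟩
        · left
          exact mem_image.mpr ⟨v.2, mem_filter.mpr ⟨hx, by rw [h, hv2]⟩, by rw [h]⟩
        · right
          exact mem_image.mpr ⟨v.2, mem_filter.mpr ⟨hx, by rw [h, hv2]⟩, by rw [h]⟩
    have h1 := card_le_card hsub
    have h2 := card_union_le (S.filter (fun v => v.1 = i))
      (((ev2 S).filter fun x => p x = i).image (fun x => (p x, x)) ∪
        ((ev0 S).filter fun x => f x = i).image (fun x => (f x, x)))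
    have h3 := card_union_le (((ev2 S).filter fun x => p x = i).image (fun x => (p x, x)))
      (((ev0 S).filter fun x => f x = i).image (fun x => (f x, x)))
    have h4 : (((ev2 S).filter fun x => p x = i).image (fun x => (p x, x))).card ≤ q i := by
      rw [hq i]; exact card_image_le
    have h5 : (((ev0 S).filter fun x => f x = i).image (fun x => (f x, x))).card ≤ c i :=
      card_image_le.trans (hf2 i)
    have h6 := hcap i
    unfold partCard
    have h7 : (S.filter (fun v => v.1 = i)).card = partCard S i := rfl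
    omega
  obtain ⟨Z, hZ1, hZ2, hZ3⟩ := fill r hr (S ∪ P) hT
  refine ⟨S ∪ P ∪ Z, ?_, hZ3, ?_⟩
  · intro v hv
    exact mem_union_left _ (mem_union_left _ hv)
  · intro x hx
    have hmem : ∀ i : Fin r, (i, x) ∈ S ∪ P ∪ Z ↔
        (i, x) ∈ S ∨ (x ∈ ev2 S ∧ p x = i) ∨ (x ∈ ev0 S ∧ f x = i) := by
      intro i
      rw [mem_union, mem_union, hPmem]
      constructor
      · rintro ((h | h) | h)
        · exact Or.inl h
        · exact Or.inr h
        · exact absurd (hZ2 _ h) (by simpa using hx)
      · rintro (h | h)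
        · exact Or.inl (Or.inl h)
        · exact Or.inl (Or.inr h)
    by_cases h2 : x ∈ ev2 S
    · -- one more vertex in part `p x`
      have h0 : x ∉ ev0 S := by
        intro h0
        unfold ev0 at h0
        unfold ev2 at h2
        rw [mem_filter] at h0 h2
        have := h2.2.2.2
        omega
      have hset : (univ.filter fun i : Fin r => InQ r x i ∧ (i, x) ∈ S ∪ P ∪ Z) =
          insert (p x) (univ.filter fun i : Fin r => InQ r x i ∧ (i, x) ∈ S) := by
        ext i
        rw [mem_filter, mem_insert, mem_filter, hmem]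
        constructor
        · rintro ⟨-, hQ, h | h | h⟩
          · exact Or.inr ⟨mem_univ _, hQ, h⟩
          · exact Or.inl h.2.symm
          · exact absurd h.1 h0
        · rintro (h | ⟨-, hQ, h⟩)
          · subst h
            exact ⟨mem_univ _, (hp1 x h2).1, Or.inr (Or.inl ⟨h2, rfl⟩)⟩
          · exact ⟨mem_univ _, hQ, Or.inl h⟩
      have hnot : p x ∉ (univ.filter fun i : Fin r => InQ r x i ∧ (i, x) ∈ S) := by
        intro h
        rw [mem_filter] at h
        exact (hp1 x h2).2 h.2.2
      unfold classCard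
      rw [hset, card_insert_of_notMem hnot]
      unfold ev2 at h2
      rw [mem_filter] at h2
      exact Even.add_one h2.2.2.1
    · by_cases h0 : x ∈ ev0 S
      · have hzero : (univ.filter fun i : Fin r => InQ r x i ∧ (i, x) ∈ S) = ∅ := by
          have h0' := h0
          unfold ev0 at h0'
          rw [mem_filter] at h0'
          exact card_eq_zero.mp h0'.2.2
        have hset : (univ.filter fun i : Fin r => InQ r x i ∧ (i, x) ∈ S ∪ P ∪ Z) = {f x} := by
          ext i
          rw [mem_filter, mem_singleton, hmem]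
          constructor
          · rintro ⟨-, hQ, h | h | h⟩
            · have : i ∈ (univ.filter fun i : Fin r => InQ r x i ∧ (i, x) ∈ S) :=
                mem_filter.mpr ⟨mem_univ _, hQ, h⟩
              rw [hzero] at this
              exact absurd this (notMem_empty _)
            · exact absurd h.1 h2
            · exact h.2.symm
          · intro h
            subst h
            exact ⟨mem_univ _, hf1 x h0, Or.inr (Or.inr ⟨h0, rfl⟩)⟩
        unfold classCard
        rw [hset, card_singleton]
        exact odd_one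
      · have hset : (univ.filter fun i : Fin r => InQ r x i ∧ (i, x) ∈ S ∪ P ∪ Z) =
            (univ.filter fun i : Fin r => InQ r x i ∧ (i, x) ∈ S) := by
          ext i
          rw [mem_filter, mem_filter, hmem]
          constructor
          · rintro ⟨-, hQ, h | h | h⟩
            · exact ⟨mem_univ _, hQ, h⟩
            · exact absurd h.1 h2
            · exact absurd h.1 h0
          · rintro ⟨-, hQ, h⟩
            exact ⟨mem_univ _, hQ, Or.inl h⟩
        unfold classCard
        rw [hset]
        rw [← Nat.not_even_iff_odd]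
        intro hev
        have hcc : classCard S x = (univ.filter fun i : Fin r => InQ r x i ∧ (i, x) ∈ S).card := rfl
        rw [← hcc] at hev
        rcases Nat.eq_zero_or_pos (classCard S x) with hz | hpos
        · apply h0
          unfold ev0
          exact mem_filter.mpr ⟨mem_univ _, hx, hz⟩
        · apply h2
          unfold ev2
          exact mem_filter.mpr ⟨mem_univ _, hx, hev, hpos⟩

/-- For every `r ≥ 3` there is an `r`-partite `r`-uniform hypergraph (parts `Fin (r * (r - 1))`,
edges given as functions) whose matchings have at most `(r - 1) ^ 2` edges and which, after the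
deletion of any at most `r - 1` vertices, still has a matching with `(r - 1) ^ 2` edges. -/
theorem main (r : ℕ) (hr : 3 ≤ r) :
    ∃ E : Finset (Fin r → Fin (r * (r - 1))),
      (∀ M : Finset (Fin r → Fin (r * (r - 1))), M ⊆ E →
        (∀ e ∈ M, ∀ f ∈ M, e ≠ f → ∀ i, e i ≠ f i) → M.card ≤ (r - 1) ^ 2) ∧
      (∀ S : Finset (Fin r × Fin (r * (r - 1))), S.card ≤ r - 1 →
        ∃ M : Finset (Fin r → Fin (r * (r - 1))), M ⊆ E ∧
          (∀ e ∈ M, ∀ f ∈ M, e ≠ f → ∀ i, e i ≠ f i) ∧
          (∀ e ∈ M, ∀ i, (i, e i) ∉ S) ∧ M.card = (r - 1) ^ 2) := by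
  refine ⟨edges r, fun M hM hmat => upper r hr M hM hmat, fun S hS => ?_⟩
  obtain ⟨L, hSL, h1, h2⟩ := leftover r hr S hS
  obtain ⟨M, hME, hmat, hav, hcard⟩ := rows r hr L h1 h2
  exact ⟨M, hME, hmat, fun e he i h => hav e he i (hSL h), hcard⟩

end Vale.Agent.H24.Lov
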