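import Vale.Agent.H24.Lov.Defs

/-!
Upper bound: a matching in `edges r` has at most `(r - 1) ^ 2` edges.

Sketch. Put `k = (r - 1) ^ 2`, `n = r * (r - 1)`. For `a < k` the set of parts `i` with `InQ r a i`
has odd size (`card_inQ_odd`), while the set of pairs `(e, i)`, `e ∈ M`, `InQ r a i`, `e i = a` has
even size (a sum of even numbers over `e ∈ M`) and injects into the parts by `(e, i) ↦ i`
(matching). Hence some part `i` with `InQ r a i` has no `e ∈ M` with `e i = a`: the vertex `(i, a)`
is uncovered. Different `a` give different uncovered vertices, so there are at least `k` uncovered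
vertices. Every part has exactly `n - M.card` uncovered vertices (`e ↦ e i` is injective on `M`),
so `k ≤ r * (n - M.card)`, and `k = r * (r - 2) + 1` forces `n - M.card ≥ r - 1`.
-/

namespace Vale.Agent.H24.Lov

open Finset

/-- Every class has a vertex not covered by the matching. -/
theorem upper_free (r : ℕ) (hr : 3 ≤ r) (M : Finset (Fin r → Fin (r * (r - 1))))
    (hM : M ⊆ edges r) (hmat : IsMatching M) (a : ℕ) (ha : a < (r - 1) ^ 2) :
    ∃ i : Fin r, InQ r a i ∧ ∀ e ∈ M, (e i : ℕ) ≠ a := by
  by_contra hcon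
  have h' : ∀ i : Fin r, InQ r a i → ∃ e ∈ M, (e i : ℕ) = a := by
    intro i hi
    by_contra hno
    exact hcon ⟨i, hi, fun e he hei => hno ⟨e, he, hei⟩⟩
  have hP : (univ.filter fun i : Fin r => InQ r a i) =
      M.biUnion (fun e => univ.filter fun i : Fin r => InQ r a i ∧ (e i : ℕ) = a) := by
    ext i
    simp only [mem_filter, mem_univ, true_and, mem_biUnion]
    constructor
    · intro hi
      obtain ⟨e, he, hei⟩ := h' i hi
      exact ⟨e, he, hi, hei⟩
    · rintro ⟨e, _, hi, _⟩
      exact hi
  have hdisj : (M : Set (Fin r → Fin (r * (r - 1)))).PairwiseDisjoint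
      (fun e => univ.filter fun i : Fin r => InQ r a i ∧ (e i : ℕ) = a) := by
    intro e he f hf hef
    rw [Function.onFun, Finset.disjoint_left]
    intro i hie hif
    rw [mem_filter] at hie hif
    exact hmat e he f hf hef i (Fin.ext (hie.2.2.trans hif.2.2.symm))
  have hodd := card_inQ_odd r a (by omega)
  rw [hP, card_biUnion hdisj] at hodd
  have heven : Even (∑ e ∈ M, (univ.filter fun i : Fin r => InQ r a i ∧ (e i : ℕ) = a).card) :=
    Finset.even_sum _ (fun e he => (mem_filter.mp (hM he)).2 a ha)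
  exact (Nat.not_even_iff_odd.mpr hodd) heven

theorem upper (r : ℕ) (hr : 3 ≤ r) (M : Finset (Fin r → Fin (r * (r - 1))))
    (hM : M ⊆ edges r) (hmat : IsMatching M) : M.card ≤ (r - 1) ^ 2 := by
  classical
  have hkn : (r - 1) ^ 2 ≤ r * (r - 1) := by
    rw [sq]
    exact Nat.mul_le_mul_right _ (Nat.sub_le r 1)
  have hfree : ∀ a : Fin ((r - 1) ^ 2), ∃ i : Fin r, InQ r a i ∧ ∀ e ∈ M, (e i : ℕ) ≠ a :=
    fun a => upper_free r hr M hM hmat a a.2
  choose g hg using hfree
  -- the uncovered vertices found above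
  let U : Finset (Fin r × Fin (r * (r - 1))) :=
    (univ : Finset (Fin ((r - 1) ^ 2))).image
      (fun a => (g a, (⟨a, lt_of_lt_of_le a.2 hkn⟩ : Fin (r * (r - 1)))))
  -- the covered vertices
  let C : Finset (Fin r × Fin (r * (r - 1))) :=
    (M ×ˢ (univ : Finset (Fin r))).image (fun p => (p.2, p.1 p.2))
  have hU : U.card = (r - 1) ^ 2 := by
    have hinj : Function.Injective
        (fun a : Fin ((r - 1) ^ 2) => (g a, (⟨a, lt_of_lt_of_le a.2 hkn⟩ : Fin (r * (r - 1))))) := by
      intro a b hab
      have h2 := congrArg (fun v : Fin r × Fin (r * (r - 1)) => (v.2 : ℕ)) hab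
      exact Fin.ext h2
    rw [card_image_of_injective _ hinj, card_univ, Fintype.card_fin]
  have hC : C.card = M.card * r := by
    have hinj : Set.InjOn (fun p : (Fin r → Fin (r * (r - 1))) × Fin r => (p.2, p.1 p.2))
        (M ×ˢ (univ : Finset (Fin r)) : Finset _) := by
      intro p hp q hq hpq
      rw [Finset.mem_coe, mem_product] at hp hq
      have h1 : p.2 = q.2 := congrArg Prod.fst hpq
      have h2 : p.1 p.2 = q.1 q.2 := congrArg Prod.snd hpq
      have h3 : p.1 = q.1 := by
        by_contra hne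
        apply hmat p.1 hp.1 q.1 hq.1 hne p.2
        rw [h2, h1]
      exact Prod.ext h3 h1
    rw [card_image_of_injOn hinj, card_product, card_univ, Fintype.card_fin]
  have hdisj : Disjoint U C := by
    rw [Finset.disjoint_left]
    intro v hvU hvC
    obtain ⟨a, _, rfl⟩ := mem_image.mp hvU
    obtain ⟨p, hp, hpe⟩ := mem_image.mp hvC
    rw [mem_product] at hp
    have h1 : p.2 = g a := congrArg Prod.fst hpe
    have h2 : ((p.1 p.2 : Fin (r * (r - 1))) : ℕ) = (a : ℕ) :=
      congrArg (fun v : Fin r × Fin (r * (r - 1)) => (v.2 : ℕ)) hpe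
    rw [h1] at h2
    exact (hg a).2 p.1 hp.1 h2
  have htot : (U ∪ C).card ≤ r * (r * (r - 1)) := by
    have h := Finset.card_le_univ (U ∪ C)
    rwa [Fintype.card_prod, Fintype.card_fin, Fintype.card_fin] at h
  rw [card_union_of_disjoint hdisj, hU, hC] at htot
  obtain ⟨s, rfl⟩ : ∃ s, r = s + 1 := ⟨r - 1, by omega⟩
  simp only [Nat.add_sub_cancel] at htot ⊢
  by_contra hcon
  have hm : s ^ 2 + 1 ≤ M.card := by omega
  have h4 := Nat.mul_le_mul_right (s + 1) hm
  nlinarith

end Vale.Agent.H24.Lov
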